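import Vale.Agent.Lib.P100.S7.D0
import Vale.Agent.Lib.P100.S7.D1
import Vale.Agent.Lib.P100.S7.D2
import Vale.Agent.Lib.P100.S7.D3
import Vale.Agent.Lib.P100.S7.D4

/-!
# P100: the staircase for `n = 7`, `e = 1/50`

Generated data (modules `D*`): rectangles in the `(p, q)`-plane with rational certificates.
-/

noncomputable section

namespace Vale.Agent.Lib.P100

namespace Check

namespace S7

/-- All the cells. -/
def cellsAll : List Cell := chunk0 ++ chunk1 ++ chunk2 ++ chunk3 ++ chunk4

/-- All the cells but the first. -/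
def cellsTail : List Cell := chunk0.tail ++ chunk1 ++ chunk2 ++ chunk3 ++ chunk4

theorem cellsAll_eq : cellsAll = c0 :: cellsTail := rfl

theorem all_ok : cellsAll.all (cellOKB 7 (3/4)) = true := by
  simp only [cellsAll, List.all_append, chunk0_ok, chunk1_ok, chunk2_ok, chunk3_ok, chunk4_ok, Bool.and_true]

theorem chain_ok : chainB ((4 : ℚ) + 1 + (1/50)) (c0 :: cellsTail) = true := by decide +kernel

theorem diag_ok : outsideB ((4 : ℚ) + 1 + (1/50)) c0.q1 c0.q1 = true := by decide +kernel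

theorem last_ok : (4 : ℚ) + 2 ≤ (1 + (1/50)) * ((c0 :: cellsTail).getLast (List.cons_ne_nil _ _)).p1 := by
  decide +kernel

/-- **The staircase for `n = 7`.** -/
theorem exists_cell {p q : ℝ} (h : Tri 4 (1/50) p q) :
    ∃ (a b : ℝ) (c : Fin 14 → ℝ) (c0 : ℝ), CellOK 7 a b c c0 p q := by
  have h' : Tri (((4 : ℚ)) : ℝ) (((1/50 : ℚ)) : ℝ) p q := by
    have e1 : (((4 : ℚ)) : ℝ) = 4 := by norm_num
    have e2 : (((1/50 : ℚ)) : ℝ) = 1/50 := by norm_num
    rw [e1, e2]; exact h
  have hall : (c0 :: cellsTail).all (cellOKB 7 (3/4)) = true := by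
    rw [← cellsAll_eq]; exact all_ok
  have hs := stair_sound (n := 7) (l := 3/4) (m := 4) (e := 1/50) (by norm_num) (by norm_num) (by norm_num)
    c0 cellsTail hall chain_ok diag_ok last_ok h'
  have e3 : (((7 : ℚ)) : ℝ) = 7 := by norm_num
  rw [e3] at hs
  exact hs

end S7

end Check

end Vale.Agent.Lib.P100
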